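import Mathlib

open Finset
open scoped Classical

namespace Vale.Agent.Lib.P028

/-- The number of integers in an open real interval `(a, b)` is at most `b - a + 1`. -/
theorem card_int_Ioo_le (T : Finset ℤ) (a b : ℝ) (hab : a ≤ b)
    (hT : ∀ k ∈ T, a < (k : ℝ) ∧ (k : ℝ) < b) : (T.card : ℝ) ≤ b - a + 1 := by
  have hsub : T ⊆ Finset.Icc (⌊a⌋ + 1) (⌈b⌉ - 1) := by
    intro k hk
    obtain ⟨h1, h2⟩ := hT k hk
    rw [Finset.mem_Icc]
    constructor
    · have : ⌊a⌋ < k := Int.floor_lt.2 h1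
      omega
    · have : k < ⌈b⌉ := Int.lt_ceil.2 h2
      omega
  have hcard : T.card ≤ (⌈b⌉ - 1 + 1 - (⌊a⌋ + 1)).toNat := by
    have := Finset.card_le_card hsub
    rwa [Int.card_Icc] at this
  have h1 : ((⌈b⌉ - 1 + 1 - (⌊a⌋ + 1)).toNat : ℝ) ≤ b - a + 1 := by
    by_cases hneg : 0 ≤ ⌈b⌉ - 1 + 1 - (⌊a⌋ + 1)
    · have : (((⌈b⌉ - 1 + 1 - (⌊a⌋ + 1)).toNat : ℤ) : ℝ) = ((⌈b⌉ - 1 + 1 - (⌊a⌋ + 1) : ℤ) : ℝ) := by
        rw [Int.toNat_of_nonneg hneg]
      have h2 : ((⌈b⌉ - 1 + 1 - (⌊a⌋ + 1)).toNat : ℝ)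
          = (((⌈b⌉ - 1 + 1 - (⌊a⌋ + 1)).toNat : ℤ) : ℝ) := by norm_cast
      rw [h2, this]
      push_cast
      have hb : (⌈b⌉ : ℝ) < b + 1 := Int.ceil_lt_add_one b
      have ha : a - 1 < (⌊a⌋ : ℝ) := Int.sub_one_lt_floor a
      linarith
    · have : (⌈b⌉ - 1 + 1 - (⌊a⌋ + 1)).toNat = 0 := Int.toNat_of_nonpos (by omega)
      rw [this]
      simp only [Nat.cast_zero]
      linarith
  calc (T.card : ℝ) ≤ ((⌈b⌉ - 1 + 1 - (⌊a⌋ + 1)).toNat : ℝ) := by exact_mod_cast hcard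
    _ ≤ b - a + 1 := h1

/-- Counting lemma: for coprime `s, s'`, at most `2 r s' + 1` of the points `z + s j / s'`
(`0 ≤ j < s'`) lie within `r` of an integer. -/
theorem count_coprime (s s' : ℕ) (hs' : 0 < s') (hcop : Nat.Coprime s s') (z r : ℝ) (hr : 0 ≤ r) :
    (((Finset.range s').filter
      (fun j : ℕ => ∃ n : ℤ, |z + (s * j : ℝ) / s' - n| < r)).card : ℝ) ≤ 2 * r * s' + 1 := by
  classical
  set J := (Finset.range s').filter (fun j : ℕ => ∃ n : ℤ, |z + (s * j : ℝ) / s' - n| < r) with hJ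
  have hs'R : (0 : ℝ) < s' := by exact_mod_cast hs'
  -- choose the integer
  have hch : ∀ j ∈ J, ∃ n : ℤ, |z + (s * j : ℝ) / s' - n| < r := by
    intro j hj
    exact (Finset.mem_filter.1 hj).2
  let nn : ℕ → ℤ := fun j => if h : ∃ n : ℤ, |z + (s * j : ℝ) / s' - n| < r then h.choose else 0
  have hnn : ∀ j ∈ J, |z + (s * j : ℝ) / s' - nn j| < r := by
    intro j hj
    have h := hch j hj
    simp only [nn, h, dif_pos]
    exact h.choose_spec
  let f : ℕ → ℤ := fun j => (s : ℤ) * j - s' * nn j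
  have hinj : Set.InjOn f (J : Set ℕ) := by
    intro j hj j' hj' hff
    have hj1 : j < s' := Finset.mem_range.1 (Finset.mem_filter.1 hj).1
    have hj2 : j' < s' := Finset.mem_range.1 (Finset.mem_filter.1 hj').1
    simp only [f] at hff
    have h1 : (s : ℤ) * ((j : ℤ) - j') = s' * (nn j - nn j') := by linarith
    have h2 : (s' : ℤ) ∣ (s : ℤ) * ((j : ℤ) - j') := ⟨_, h1⟩
    have hcopZ : IsCoprime (s' : ℤ) (s : ℤ) := by
      have := Nat.isCoprime_iff_coprime.2 hcop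
      exact this.symm
    have h3 : (s' : ℤ) ∣ ((j : ℤ) - j') := hcopZ.dvd_of_dvd_mul_left h2
    have h4 : |(j : ℤ) - j'| < s' := by
      rw [abs_lt]
      constructor <;> omega
    have h5 : (j : ℤ) - j' = 0 := Int.eq_zero_of_abs_lt_dvd h3 h4
    omega
  have hcard : J.card = (J.image f).card := (Finset.card_image_of_injOn hinj).symm
  rw [hcard]
  have := card_int_Ioo_le (J.image f) (-(s' * z) - r * s') (-(s' * z) + r * s') (by nlinarith) ?_
  · calc ((J.image f).card : ℝ) ≤ (-(s' * z) + r * s') - (-(s' * z) - r * s') + 1 := this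
      _ = 2 * r * s' + 1 := by ring
  · intro k hk
    obtain ⟨j, hj, rfl⟩ := Finset.mem_image.1 hk
    have h := hnn j hj
    rw [abs_lt] at h
    simp only [f]
    push_cast
    have e1 : (z + (s * j : ℝ) / s' - nn j) * s' = s' * z + ((s : ℝ) * j - s' * nn j) := by
      field_simp
      ring
    constructor
    · have : -r * s' < (z + (s * j : ℝ) / s' - nn j) * s' := by
        exact mul_lt_mul_of_pos_right h.1 hs'R
      rw [e1] at this
      linarith
    · have : (z + (s * j : ℝ) / s' - nn j) * s' < r * s' := by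
        exact mul_lt_mul_of_pos_right h.2 hs'R
      rw [e1] at this
      linarith

end Vale.Agent.Lib.P028
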