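import Mathlib
import Vale.Agent.Lib.P028.Count

open MeasureTheory Set
open scoped Classical

namespace Vale.Agent.Lib.P028

/-- The set of points `x` of the circle `ℝ/ℤ` with `‖q x - c‖ < r`. -/
def arcSet (q : ℕ) (c : UnitAddCircle) (r : ℝ) : Set UnitAddCircle := {x | ‖q • x - c‖ < r}

theorem arcSet_eq_preimage (q : ℕ) (c : UnitAddCircle) (r : ℝ) :
    arcSet q c r = (fun x : UnitAddCircle => (q : ℤ) • x) ⁻¹' Metric.ball c r := by
  ext x
  simp [arcSet, Metric.mem_ball, dist_eq_norm]

theorem measurableSet_arcSet (q : ℕ) (c : UnitAddCircle) (r : ℝ) :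
    MeasurableSet (arcSet q c r) := by
  rw [arcSet_eq_preimage]
  exact (continuous_zsmul (q : ℤ)).measurable measurableSet_ball

theorem volume_arcSet (q : ℕ) (hq : 0 < q) (c : UnitAddCircle) (r : ℝ) (hr0 : 0 ≤ r)
    (hr : r ≤ 1 / 2) : (volume : Measure UnitAddCircle).real (arcSet q c r) = 2 * r := by
  have hq' : (q : ℤ) ≠ 0 := by exact_mod_cast hq.ne'
  have h1 : volume (arcSet q c r) = volume (Metric.ball c r) := by
    rw [arcSet_eq_preimage]
    exact (Measure.measurePreserving_zsmul (volume : Measure UnitAddCircle) hq').measure_preimage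
      measurableSet_ball.nullMeasurableSet
  have h2 : volume (Metric.ball c r) = volume (Metric.closedBall c r) :=
    (measure_congr AddCircle.closedBall_ae_eq_ball).symm
  rw [Measure.real, h1, h2, AddCircle.volume_closedBall]
  rw [ENNReal.toReal_ofReal (by positivity)]
  exact min_eq_right (by linarith)

/-- If every point of `E` lies in at most `K` of the sets `B j`, then
`∑ μ (B j ∩ E) ≤ K μ E`. -/
theorem sum_measure_le_of_card_le {Ω : Type*} [MeasurableSpace Ω] (μ : Measure Ω)
    [IsFiniteMeasure μ] (F : Finset ℕ) (B : ℕ → Set Ω) (hB : ∀ j, MeasurableSet (B j))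
    (E : Set Ω) (hE : MeasurableSet E) (K : ℝ)
    (hK : ∀ x ∈ E, ((F.filter (fun j => x ∈ B j)).card : ℝ) ≤ K) :
    ∑ j ∈ F, μ.real (B j ∩ E) ≤ K * μ.real E := by
  have hind_int : ∀ s : Set Ω, MeasurableSet s → Integrable (s.indicator (fun _ => (1:ℝ))) μ :=
    fun s hs => (integrable_const (1:ℝ)).indicator hs
  have h1 : ∑ j ∈ F, μ.real (B j ∩ E)
      = ∫ x, ∑ j ∈ F, (B j ∩ E).indicator (fun _ => (1:ℝ)) x ∂μ := by
    rw [integral_finsetSum F (fun j _ => hind_int _ ((hB j).inter hE))]
    refine Finset.sum_congr rfl (fun j _ => ?_)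
    rw [integral_indicator ((hB j).inter hE)]
    simp [Measure.real]
  have h2 : K * μ.real E = ∫ x, K * E.indicator (fun _ => (1:ℝ)) x ∂μ := by
    rw [integral_const_mul, integral_indicator hE]
    simp [Measure.real]
  rw [h1, h2]
  refine integral_mono (integrable_finsetSum F (fun j _ => hind_int _ ((hB j).inter hE)))
    ((hind_int E hE).const_mul K) (fun x => ?_)
  by_cases hx : x ∈ E
  · have : ∑ j ∈ F, (B j ∩ E).indicator (fun _ => (1:ℝ)) x
        = ((F.filter (fun j => x ∈ B j)).card : ℝ) := by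
      rw [← Finset.sum_boole]
      refine Finset.sum_congr rfl (fun j _ => ?_)
      by_cases hj : x ∈ B j <;> simp [hj, hx]
    simp only [this, hx, Set.indicator_of_mem, mul_one]
    exact hK x hx
  · simp [hx]

/-- Overlap estimate for coprime frequencies. -/
theorem overlap_coprime (s s' : ℕ) (hs' : 0 < s') (hcop : Nat.Coprime s s')
    (c c' : UnitAddCircle) (r r' : ℝ) (hr : 0 ≤ r) :
    (volume : Measure UnitAddCircle).real (arcSet s c r ∩ arcSet s' c' r')
      ≤ (2 * r + 1 / s') * (volume : Measure UnitAddCircle).real (arcSet s' c' r') := by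
  have hs'R : (0 : ℝ) < s' := by exact_mod_cast hs'
  set μ := (volume : Measure UnitAddCircle) with hμ
  set E := arcSet s' c' r' with hE
  set B := arcSet s c r with hB
  let u : ℕ → UnitAddCircle := fun j => (((j : ℝ) / s' : ℝ) : UnitAddCircle)
  have hu : ∀ j, s' • u j = 0 := by
    intro j
    simp only [u]
    rw [← AddCircle.coe_nsmul]
    have : s' • ((j : ℝ) / s') = (j : ℝ) := by
      rw [nsmul_eq_mul]; field_simp
    rw [this]
    have := AddCircle.coe_period (1 : ℝ)
    have h2 : ((j : ℝ) : UnitAddCircle) = j • ((1 : ℝ) : UnitAddCircle) := by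
      rw [← AddCircle.coe_nsmul]; simp
    rw [h2, this, smul_zero]
  let Bj : ℕ → Set UnitAddCircle := fun j => (fun x => x + u j) ⁻¹' B
  have hBj : ∀ j, MeasurableSet (Bj j) := fun j =>
    (measurable_add_const (u j)) (measurableSet_arcSet s c r)
  have hEinv : ∀ j, (fun x => x + u j) ⁻¹' E = E := by
    intro j
    ext x
    simp only [hE, arcSet, Set.mem_preimage, Set.mem_ofPred_eq, smul_add, hu j, add_zero]
  have heq : ∀ j, μ.real (Bj j ∩ E) = μ.real (B ∩ E) := by
    intro j
    have : Bj j ∩ E = (fun x => x + u j) ⁻¹' (B ∩ E) := by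
      rw [Set.preimage_inter, hEinv j]
    rw [this, Measure.real, Measure.real, measure_preimage_add_right]
  have hsum : ∑ j ∈ Finset.range s', μ.real (Bj j ∩ E) = s' * μ.real (B ∩ E) := by
    rw [Finset.sum_congr rfl (fun j _ => heq j)]
    simp
  have hcount : ∀ x ∈ E, (((Finset.range s').filter (fun j => x ∈ Bj j)).card : ℝ)
      ≤ 2 * r * s' + 1 := by
    intro x _
    obtain ⟨x₀, rfl⟩ := QuotientAddGroup.mk_surjective x
    obtain ⟨c₀, rfl⟩ := QuotientAddGroup.mk_surjective c
    refine le_trans ?_ (count_coprime s s' hs' hcop (s * x₀ - c₀) r hr)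
    have hsub : (Finset.range s').filter (fun j => (QuotientAddGroup.mk x₀ : UnitAddCircle) ∈ Bj j)
        ⊆ (Finset.range s').filter
          (fun j : ℕ => ∃ n : ℤ, |(s * x₀ - c₀) + (s * j : ℝ) / s' - n| < r) := by
      intro j hj
      rw [Finset.mem_filter] at hj ⊢
      refine ⟨hj.1, ?_⟩
      have h := hj.2
      simp only [Bj, hB, arcSet, Set.mem_preimage, Set.mem_ofPred_eq, u] at h
      have e : s • ((QuotientAddGroup.mk x₀ : UnitAddCircle) + (((j : ℝ) / s' : ℝ) : UnitAddCircle))
          - (QuotientAddGroup.mk c₀ : UnitAddCircle)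
          = (((s * x₀ - c₀) + (s * j : ℝ) / s' : ℝ) : UnitAddCircle) := by
        have : ((s * x₀ - c₀) + (s * j : ℝ) / s' : ℝ) = s • (x₀ + (j : ℝ) / s') - c₀ := by
          rw [nsmul_eq_mul]; ring
        rw [this, AddCircle.coe_sub, AddCircle.coe_nsmul, AddCircle.coe_add]
      rw [e, UnitAddCircle.norm_eq] at h
      exact ⟨_, h⟩
    exact_mod_cast Finset.card_le_card hsub
  have hmain := sum_measure_le_of_card_le μ (Finset.range s') Bj hBj E
    (measurableSet_arcSet s' c' r') (2 * r * s' + 1) hcount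
  rw [hsum] at hmain
  have : (s' : ℝ) * μ.real (B ∩ E) ≤ s' * ((2 * r + 1 / s') * μ.real E) := by
    calc (s' : ℝ) * μ.real (B ∩ E) ≤ (2 * r * s' + 1) * μ.real E := hmain
      _ = s' * ((2 * r + 1 / s') * μ.real E) := by field_simp
  exact le_of_mul_le_mul_left this hs'R

end Vale.Agent.Lib.P028
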