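import Mathlib

open Finset

namespace Vale.Agent.Lib.P028

theorem card_multiples_le (n d : ℕ) (hd : d ∣ n) (hd0 : 0 < d) :
    ((Finset.range n).filter (fun q => d ∣ q)).card ≤ n / d := by
  have : ((Finset.range n).filter (fun q => d ∣ q)).card ≤ (Finset.range (n / d)).card := by
    refine Finset.card_le_card_of_injOn (fun q => q / d) ?_ ?_
    · intro q hq
      have hq' := Finset.mem_filter.1 hq
      have h1 : q < n := Finset.mem_range.1 hq'.1
      simp only [Finset.coe_range, Set.mem_Iio]
      exact Nat.div_lt_div_of_lt_of_dvd hd h1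
    · intro q hq q' hq' h
      have h1 := (Finset.mem_filter.1 hq).2
      have h2 := (Finset.mem_filter.1 hq').2
      simp only at h
      calc q = d * (q / d) := (Nat.mul_div_cancel' h1).symm
        _ = d * (q' / d) := by rw [h]
        _ = q' := Nat.mul_div_cancel' h2
  simpa using this

/-- Pillai-type bound: `∑_{q < n} gcd(q, n) ≤ n τ(n)`. -/
theorem sum_gcd_le (n : ℕ) (hn : 0 < n) :
    ∑ q ∈ Finset.range n, Nat.gcd q n ≤ n * n.divisors.card := by
  have hmaps : ∀ q ∈ Finset.range n, Nat.gcd q n ∈ n.divisors := by
    intro q _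
    exact Nat.mem_divisors.2 ⟨Nat.gcd_dvd_right q n, hn.ne'⟩
  rw [← Finset.sum_fiberwise_of_maps_to hmaps]
  calc ∑ d ∈ n.divisors, ∑ q ∈ (Finset.range n).filter (fun q => Nat.gcd q n = d), Nat.gcd q n
      ≤ ∑ d ∈ n.divisors, n := by
        refine Finset.sum_le_sum (fun d hd => ?_)
        have hdn : d ∣ n := (Nat.mem_divisors.1 hd).1
        have hd0 : 0 < d := Nat.pos_of_mem_divisors hd
        calc ∑ q ∈ (Finset.range n).filter (fun q => Nat.gcd q n = d), Nat.gcd q n
            = ∑ q ∈ (Finset.range n).filter (fun q => Nat.gcd q n = d), d := by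
              refine Finset.sum_congr rfl (fun q hq => (Finset.mem_filter.1 hq).2)
          _ = ((Finset.range n).filter (fun q => Nat.gcd q n = d)).card * d := by
              rw [Finset.sum_const, smul_eq_mul]
          _ ≤ ((Finset.range n).filter (fun q => d ∣ q)).card * d := by
              refine Nat.mul_le_mul_right d (Finset.card_le_card ?_)
              intro q hq
              rw [Finset.mem_filter] at hq ⊢
              exact ⟨hq.1, hq.2 ▸ Nat.gcd_dvd_left q n⟩
          _ ≤ n / d * d := Nat.mul_le_mul_right d (card_multiples_le n d hdn hd0)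
          _ = n := Nat.div_mul_cancel hdn
    _ = n * n.divisors.card := by rw [Finset.sum_const, smul_eq_mul, mul_comm]

end Vale.Agent.Lib.P028
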