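import Mathlib

open MeasureTheory Set Finset

namespace Vale.Agent.Lib.P028

/-- Paley-Zygmund type bound for a finite family of events. -/
theorem union_lower_bound {Ω : Type*} [MeasurableSpace Ω] (μ : Measure Ω) [IsProbabilityMeasure μ]
    (A : ℕ → Set Ω) (hA : ∀ n, MeasurableSet (A n)) (F : Finset ℕ) (K : ℝ) (hK : 0 ≤ K)
    (h2 : ∑ i ∈ F, ∑ j ∈ F, μ.real (A i ∩ A j)
      ≤ (∑ i ∈ F, μ.real (A i)) ^ 2 + K * ∑ i ∈ F, μ.real (A i)) :
    (∑ i ∈ F, μ.real (A i)) ≤ ((∑ i ∈ F, μ.real (A i)) + K) * μ.real (⋃ i ∈ F, A i) := by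
  classical
  set m : ℝ := ∑ i ∈ F, μ.real (A i) with hm
  have hm0 : 0 ≤ m := Finset.sum_nonneg (fun i _ => measureReal_nonneg)
  set U : Set Ω := ⋃ i ∈ F, A i with hU
  have hUm : MeasurableSet U := Finset.measurableSet_biUnion F (fun i _ => hA i)
  set S : Ω → ℝ := fun ω => ∑ i ∈ F, (A i).indicator (fun _ => (1:ℝ)) ω with hS
  have hind_int : ∀ s : Set Ω, MeasurableSet s → Integrable (s.indicator (fun _ => (1:ℝ))) μ :=
    fun s hs => (integrable_const (1:ℝ)).indicator hs
  have hSint : Integrable S μ := integrable_finsetSum F (fun i _ => hind_int _ (hA i))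
  have hES : ∫ ω, S ω ∂μ = m := by
    rw [hS, integral_finsetSum F (fun i _ => hind_int _ (hA i))]
    refine Finset.sum_congr rfl (fun i _ => ?_)
    rw [integral_indicator (hA i)]
    simp [Measure.real]
  have hS2 : ∀ ω, S ω ^ 2 = ∑ i ∈ F, ∑ j ∈ F, (A i ∩ A j).indicator (fun _ => (1:ℝ)) ω := by
    intro ω
    rw [hS, sq, Finset.sum_mul_sum]
    refine Finset.sum_congr rfl (fun i _ => Finset.sum_congr rfl (fun j _ => ?_))
    by_cases h1 : ω ∈ A i <;> by_cases h2 : ω ∈ A j <;> simp [h1, h2]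
  have hS2int : Integrable (fun ω => S ω ^ 2) μ := by
    simp_rw [hS2]
    exact integrable_finsetSum F (fun i _ => integrable_finsetSum F
      (fun j _ => hind_int _ ((hA i).inter (hA j))))
  have hES2 : ∫ ω, S ω ^ 2 ∂μ = ∑ i ∈ F, ∑ j ∈ F, μ.real (A i ∩ A j) := by
    simp_rw [hS2]
    rw [integral_finsetSum F (fun i _ => integrable_finsetSum F
      (fun j _ => hind_int _ ((hA i).inter (hA j))))]
    refine Finset.sum_congr rfl (fun i _ => ?_)
    rw [integral_finsetSum F (fun j _ => hind_int _ ((hA i).inter (hA j)))]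
    refine Finset.sum_congr rfl (fun j _ => ?_)
    rw [integral_indicator ((hA i).inter (hA j))]
    simp [Measure.real]
  set t : ℝ := m + K with ht
  have ht0 : 0 ≤ t := by positivity
  -- pointwise inequality
  have hpt : ∀ ω, 2 * t * S ω ≤ t ^ 2 * U.indicator (fun _ => (1:ℝ)) ω + S ω ^ 2 := by
    intro ω
    by_cases hω : ω ∈ U
    · simp only [hω, Set.indicator_of_mem]
      nlinarith [sq_nonneg (S ω - t)]
    · have : S ω = 0 := by
        rw [hS]
        refine Finset.sum_eq_zero (fun i hi => ?_)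
        have : ω ∉ A i := fun h => hω (Set.mem_biUnion hi h)
        simp [this]
      simp [this, hω]
  have hint : ∫ ω, 2 * t * S ω ∂μ ≤ ∫ ω, (t ^ 2 * U.indicator (fun _ => (1:ℝ)) ω + S ω ^ 2) ∂μ :=
    integral_mono (hSint.const_mul _) (((hind_int U hUm).const_mul _).add hS2int) hpt
  rw [integral_const_mul, integral_add ((hind_int U hUm).const_mul _) hS2int, integral_const_mul,
    hES, hES2, integral_indicator hUm] at hint
  have hUr : ∫ _ω in U, (1:ℝ) ∂μ = μ.real U := by simp [Measure.real]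
  rw [hUr] at hint
  -- 2 t m ≤ t^2 μU + m^2 + K m = t^2 μ U + m t
  have h3 : t * m ≤ t * (t * μ.real U) := by nlinarith
  by_cases ht1 : t = 0
  · have : m = 0 := by
      have : m ≤ 0 := by linarith
      linarith
    rw [this]
    have : (0:ℝ) ≤ μ.real U := measureReal_nonneg
    nlinarith
  · have htpos : 0 < t := lt_of_le_of_ne ht0 (Ne.symm ht1)
    exact le_of_mul_le_mul_left h3 htpos

/-- Divergence Borel-Cantelli lemma under sharp quasi-independence on average. -/
theorem ae_infinite_of_quasi_indep {Ω : Type*} [MeasurableSpace Ω] (μ : Measure Ω)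
    [IsProbabilityMeasure μ] (A : ℕ → Set Ω) (hA : ∀ n, MeasurableSet (A n))
    (e : ℕ → ℕ → ℝ) (he : ∀ i j, 0 ≤ e i j) (C : ℝ)
    (h2 : ∀ i j, i < j → μ.real (A i ∩ A j) ≤ μ.real (A i) * μ.real (A j) + e i j * μ.real (A j))
    (h3 : ∀ j, ∑ i ∈ Finset.range j, e i j ≤ C)
    (hdiv : ¬ Summable (fun n => μ.real (A n))) :
    ∀ᵐ ω ∂μ, {n | ω ∈ A n}.Infinite := by
  classical
  set p : ℕ → ℝ := fun n => μ.real (A n) with hp
  have hp0 : ∀ n, 0 ≤ p n := fun n => measureReal_nonneg
  have hC : 0 ≤ C := by simpa using h3 0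
  set K : ℝ := 2 * C + 1 with hK
  have hK0 : 0 ≤ K := by positivity
  -- second moment bound for every finite set
  have hF : ∀ F : Finset ℕ, ∑ i ∈ F, ∑ j ∈ F, μ.real (A i ∩ A j)
      ≤ (∑ i ∈ F, p i) ^ 2 + K * ∑ i ∈ F, p i := by
    intro F
    have hpt : ∀ i j, μ.real (A i ∩ A j) ≤ p i * p j + (if i < j then e i j * p j else 0)
        + (if j < i then e j i * p i else 0) + (if i = j then p i else 0) := by
      intro i j
      rcases lt_trichotomy i j with h | h | h
      · have h' : ¬ j < i := by omega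
        have h'' : i ≠ j := by omega
        simp only [h, h', h'', if_true, if_false]
        have := h2 i j h
        simp only [hp]
        linarith
      · subst h
        simp only [lt_irrefl, if_false, if_true, Set.inter_self]
        have : 0 ≤ p i * p i := mul_nonneg (hp0 i) (hp0 i)
        simp only [hp] at this ⊢
        linarith
      · have h' : ¬ i < j := by omega
        have h'' : i ≠ j := by omega
        simp only [h, h', h'', if_true, if_false]
        have := h2 j i h
        rw [Set.inter_comm] at this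
        simp only [hp]
        nlinarith
    have hsumfil : ∀ j, ∑ i ∈ F, (if i < j then e i j * p j else 0) ≤ C * p j := by
      intro j
      rw [← Finset.sum_filter, ← Finset.sum_mul]
      refine mul_le_mul_of_nonneg_right ?_ (hp0 j)
      refine le_trans ?_ (h3 j)
      refine Finset.sum_le_sum_of_subset_of_nonneg ?_ (fun i _ _ => he i j)
      intro i hi
      simp only [Finset.mem_filter] at hi
      simpa using hi.2
    calc ∑ i ∈ F, ∑ j ∈ F, μ.real (A i ∩ A j)
        ≤ ∑ i ∈ F, ∑ j ∈ F, (p i * p j + (if i < j then e i j * p j else 0)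
        + (if j < i then e j i * p i else 0) + (if i = j then p i else 0)) :=
          Finset.sum_le_sum (fun i _ => Finset.sum_le_sum (fun j _ => hpt i j))
      _ = ∑ i ∈ F, ∑ j ∈ F, p i * p j + ∑ i ∈ F, ∑ j ∈ F, (if i < j then e i j * p j else 0)
        + ∑ i ∈ F, ∑ j ∈ F, (if j < i then e j i * p i else 0)
        + ∑ i ∈ F, ∑ j ∈ F, (if i = j then p i else 0) := by
          simp only [Finset.sum_add_distrib]
      _ ≤ (∑ i ∈ F, p i) ^ 2 + C * ∑ i ∈ F, p i + C * ∑ i ∈ F, p i + ∑ i ∈ F, p i := by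
          have e1 : ∑ i ∈ F, ∑ j ∈ F, p i * p j = (∑ i ∈ F, p i) ^ 2 := by
            rw [sq, Finset.sum_mul_sum]
          have e2 : ∑ i ∈ F, ∑ j ∈ F, (if i < j then e i j * p j else 0) ≤ C * ∑ i ∈ F, p i := by
            rw [Finset.sum_comm, Finset.mul_sum]
            exact Finset.sum_le_sum (fun j _ => hsumfil j)
          have e3 : ∑ i ∈ F, ∑ j ∈ F, (if j < i then e j i * p i else 0) ≤ C * ∑ i ∈ F, p i := by
            rw [Finset.mul_sum]
            exact Finset.sum_le_sum (fun j _ => hsumfil j)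
          have e4 : ∑ i ∈ F, ∑ j ∈ F, (if i = j then p i else 0) = ∑ i ∈ F, p i := by
            refine Finset.sum_congr rfl (fun i hi => ?_)
            rw [Finset.sum_ite_eq]
            simp [hi]
          linarith
      _ = (∑ i ∈ F, p i) ^ 2 + K * ∑ i ∈ F, p i := by rw [hK]; ring
  have hlow : ∀ F : Finset ℕ, (∑ i ∈ F, p i) ≤ ((∑ i ∈ F, p i) + K) * μ.real (⋃ i ∈ F, A i) :=
    fun F => union_lower_bound μ A hA F K hK0 (hF F)
  have htend : Filter.Tendsto (fun n => ∑ i ∈ Finset.range n, p i) Filter.atTop Filter.atTop :=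
    (not_summable_iff_tendsto_nat_atTop_of_nonneg hp0).1 hdiv
  -- every tail union has full measure
  have htail : ∀ M : ℕ, μ.real (⋃ i ∈ {i | M ≤ i}, A i) = 1 := by
    intro M
    set V : Set Ω := ⋃ i ∈ {i | M ≤ i}, A i with hV
    have hle : μ.real V ≤ 1 := measureReal_le_one
    by_contra hne
    have hlt : μ.real V < 1 := lt_of_le_of_ne hle hne
    have hv0 : 0 ≤ μ.real V := measureReal_nonneg
    obtain ⟨N, hN⟩ := (htend.eventually_gt_atTop
      (K / (1 - μ.real V) + ∑ i ∈ Finset.range M, p i)).exists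
    have hMN : M ≤ N := by
      by_contra hcon
      have hNM : N ≤ M := by omega
      have h1 : ∑ i ∈ Finset.range N, p i ≤ ∑ i ∈ Finset.range M, p i :=
        Finset.sum_le_sum_of_subset_of_nonneg (Finset.range_mono hNM) (fun i _ _ => hp0 i)
      have h2 : 0 ≤ K / (1 - μ.real V) := div_nonneg hK0 (by linarith)
      linarith
    have hsplit : ∑ i ∈ Finset.Ico M N, p i
        = ∑ i ∈ Finset.range N, p i - ∑ i ∈ Finset.range M, p i :=
      Finset.sum_Ico_eq_sub _ hMN
    have hbig : K / (1 - μ.real V) < ∑ i ∈ Finset.Ico M N, p i := by rw [hsplit]; linarith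
    have hsub : (⋃ i ∈ Finset.Ico M N, A i) ⊆ V := by
      intro ω hω
      simp only [Set.mem_iUnion, Finset.mem_Ico, exists_prop] at hω
      obtain ⟨i, hi, hωi⟩ := hω
      exact Set.mem_biUnion (show i ∈ {i | M ≤ i} from hi.1) hωi
    have hmono : μ.real (⋃ i ∈ Finset.Ico M N, A i) ≤ μ.real V :=
      measureReal_mono hsub (measure_ne_top μ V)
    have hl := hlow (Finset.Ico M N)
    set m : ℝ := ∑ i ∈ Finset.Ico M N, p i with hm
    have hm0 : 0 ≤ m := Finset.sum_nonneg (fun i _ => hp0 i)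
    have h4 : m ≤ (m + K) * μ.real V :=
      le_trans hl (mul_le_mul_of_nonneg_left hmono (by positivity))
    have h5 : m * (1 - μ.real V) ≤ K := by nlinarith
    have h6 : K < m * (1 - μ.real V) := by
      rwa [div_lt_iff₀ (by linarith)] at hbig
    linarith
  have hae : ∀ M : ℕ, ∀ᵐ ω ∂μ, ω ∈ ⋃ i ∈ {i | M ≤ i}, A i := by
    intro M
    have hVm : MeasurableSet (⋃ i ∈ {i | M ≤ i}, A i) :=
      MeasurableSet.biUnion (Set.to_countable _) (fun i _ => hA i)
    rw [ae_iff]
    have : {a | a ∉ ⋃ i ∈ {i | M ≤ i}, A i} = (⋃ i ∈ {i | M ≤ i}, A i)ᶜ := rfl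
    rw [this]
    have h1 := htail M
    have h2 : μ (⋃ i ∈ {i | M ≤ i}, A i) = 1 := by
      have h3 : (μ (⋃ i ∈ {i | M ≤ i}, A i)).toReal = 1 := h1
      have h4 := ENNReal.ofReal_toReal (measure_ne_top μ (⋃ i ∈ {i | M ≤ i}, A i))
      rw [h3] at h4
      simpa using h4.symm
    rw [prob_compl_eq_zero_iff hVm]
    exact h2
  have hall : ∀ᵐ ω ∂μ, ∀ M : ℕ, ω ∈ ⋃ i ∈ {i | M ≤ i}, A i := ae_all_iff.2 hae
  filter_upwards [hall] with ω hω
  refine Set.infinite_of_forall_exists_gt (fun M => ?_)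
  have := hω (M + 1)
  simp only [Set.mem_iUnion, exists_prop] at this
  obtain ⟨i, hi, hωi⟩ := this
  exact ⟨i, hωi, by omega⟩

end Vale.Agent.Lib.P028
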