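import Mathlib
import Vale.Agent.Lib.P028.SecondMoment
import Vale.Agent.Lib.P028.Circle

open MeasureTheory Set
open scoped Classical

namespace Vale.Agent.Lib.P028

theorem arcSet_mul (g s : ℕ) (c : UnitAddCircle) (r : ℝ) :
    arcSet (s * g) c r = (fun x : UnitAddCircle => (g : ℤ) • x) ⁻¹' arcSet s c r := by
  ext x
  simp [arcSet, mul_smul]

/-- Overlap estimate for arbitrary positive frequencies. -/
theorem overlap_gcd (q q' : ℕ) (hq : 0 < q) (hq' : 0 < q')
    (c c' : UnitAddCircle) (r r' : ℝ) (hr : 0 ≤ r) :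
    (volume : Measure UnitAddCircle).real (arcSet q c r ∩ arcSet q' c' r')
      ≤ (2 * r + (Nat.gcd q q' : ℝ) / q') * (volume : Measure UnitAddCircle).real
        (arcSet q' c' r') := by
  set g := Nat.gcd q q' with hg
  have hgpos : 0 < g := Nat.gcd_pos_of_pos_left _ hq
  obtain ⟨s, hs⟩ : g ∣ q := Nat.gcd_dvd_left q q'
  obtain ⟨s', hs'⟩ : g ∣ q' := Nat.gcd_dvd_right q q'
  have hs'pos : 0 < s' := by
    rcases Nat.eq_zero_or_pos s' with h | h
    · rw [h] at hs'; omega
    · exact h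
  have hcop : Nat.Coprime s s' := by
    have h := Nat.coprime_div_gcd_div_gcd (m := q) (n := q') hgpos
    have e1 : q / Nat.gcd q q' = s := by
      rw [← hg]; conv_lhs => rw [hs]
      exact Nat.mul_div_cancel_left s hgpos
    have e2 : q' / Nat.gcd q q' = s' := by
      rw [← hg]; conv_lhs => rw [hs']
      exact Nat.mul_div_cancel_left s' hgpos
    rwa [e1, e2] at h
  have hgZ : (g : ℤ) ≠ 0 := by exact_mod_cast hgpos.ne'
  have hmp := Measure.measurePreserving_zsmul (volume : Measure UnitAddCircle) hgZ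
  have e1 : arcSet q c r = (fun x : UnitAddCircle => (g : ℤ) • x) ⁻¹' arcSet s c r := by
    rw [← arcSet_mul, mul_comm, ← hs]
  have e2 : arcSet q' c' r' = (fun x : UnitAddCircle => (g : ℤ) • x) ⁻¹' arcSet s' c' r' := by
    rw [← arcSet_mul, mul_comm, ← hs']
  have m1 : (volume : Measure UnitAddCircle).real (arcSet q c r ∩ arcSet q' c' r')
      = (volume : Measure UnitAddCircle).real (arcSet s c r ∩ arcSet s' c' r') := by
    rw [e1, e2, ← Set.preimage_inter, Measure.real, Measure.real,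
      hmp.measure_preimage
        ((measurableSet_arcSet s c r).inter (measurableSet_arcSet s' c' r')).nullMeasurableSet]
  have m2 : (volume : Measure UnitAddCircle).real (arcSet q' c' r')
      = (volume : Measure UnitAddCircle).real (arcSet s' c' r') := by
    rw [e2, Measure.real, Measure.real,
      hmp.measure_preimage (measurableSet_arcSet s' c' r').nullMeasurableSet]
  rw [m1, m2]
  have hfrac : (g : ℝ) / q' = 1 / s' := by
    have hgR : (g : ℝ) ≠ 0 := by exact_mod_cast hgpos.ne'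
    have hsR : (s' : ℝ) ≠ 0 := by exact_mod_cast hs'pos.ne'
    rw [hs']; push_cast; field_simp
  rw [hfrac]
  exact overlap_coprime s s' hs'pos hcop c c' r r' hr

theorem arcSet_zero_radius (q : ℕ) (c : UnitAddCircle) : arcSet q c 0 = ∅ := by
  ext x
  simp only [arcSet, Set.mem_ofPred_eq, Set.mem_empty_iff_false, iff_false, not_lt]
  exact norm_nonneg _

/-- Main theorem on the circle. -/
theorem circle_main (S : Set ℕ) (C : ℝ)
    (hS : ∀ q' ∈ S, ∑ q ∈ (Finset.range q').filter (fun q => q ∈ S), (Nat.gcd q q' : ℝ) ≤ C * q')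
    (c : ℕ → UnitAddCircle) (ψ : ℕ → ℝ) (hψ0 : ∀ q, 0 ≤ ψ q)
    (hdiv : ¬ Summable (S.indicator ψ)) :
    ∀ᵐ x : UnitAddCircle, {q : ℕ | q ∈ S ∧ 0 < q ∧ ‖q • x - c q‖ < ψ q}.Infinite := by
  set μ := (volume : Measure UnitAddCircle) with hμ
  have : IsProbabilityMeasure μ := ⟨by simp [hμ]⟩
  let ρ : ℕ → ℝ := fun q => if q ∈ S ∧ 0 < q then min (ψ q) (1 / 2) else 0
  have hρ0 : ∀ q, 0 ≤ ρ q := by
    intro q
    simp only [ρ]
    split_ifs
    · exact le_min (hψ0 q) (by norm_num)
    · exact le_refl _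
  have hρhalf : ∀ q, ρ q ≤ 1 / 2 := by
    intro q
    simp only [ρ]
    split_ifs
    · exact min_le_right _ _
    · norm_num
  have hρbad : ∀ q, ¬ (q ∈ S ∧ 0 < q) → ρ q = 0 := by
    intro q hq
    simp only [ρ, hq, if_false]
  let A : ℕ → Set UnitAddCircle := fun q => arcSet q (c q) (ρ q)
  have hA : ∀ q, MeasurableSet (A q) := fun q => measurableSet_arcSet _ _ _
  have hAbad : ∀ q, ¬ (q ∈ S ∧ 0 < q) → A q = ∅ := by
    intro q hq
    simp only [A, hρbad q hq, arcSet_zero_radius]
  have hAmeas : ∀ q, μ.real (A q) = 2 * ρ q := by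
    intro q
    by_cases hq : q ∈ S ∧ 0 < q
    · exact volume_arcSet q hq.2 (c q) (ρ q) (hρ0 q) (hρhalf q)
    · rw [hAbad q hq, hρbad q hq]; simp
  let e : ℕ → ℕ → ℝ := fun i j =>
    if (i ∈ S ∧ 0 < i) ∧ (j ∈ S ∧ 0 < j) then (Nat.gcd i j : ℝ) / j else 0
  have he : ∀ i j, 0 ≤ e i j := by
    intro i j
    simp only [e]
    split_ifs
    · positivity
    · exact le_refl _
  have h2 : ∀ i j, i < j → μ.real (A i ∩ A j) ≤ μ.real (A i) * μ.real (A j) + e i j * μ.real (A j) := by
    intro i j _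
    by_cases hi : i ∈ S ∧ 0 < i
    · by_cases hj : j ∈ S ∧ 0 < j
      · have := overlap_gcd i j hi.2 hj.2 (c i) (c j) (ρ i) (ρ j) (hρ0 i)
        have he' : e i j = (Nat.gcd i j : ℝ) / j := by simp only [e, hi, hj, and_self, if_true]
        rw [he', hAmeas i]
        calc μ.real (A i ∩ A j) ≤ (2 * ρ i + (Nat.gcd i j : ℝ) / j) * μ.real (A j) := this
          _ = 2 * ρ i * μ.real (A j) + (Nat.gcd i j : ℝ) / j * μ.real (A j) := by ring
      · rw [hAbad j hj]; simp
    · rw [hAbad i hi]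
      simp only [Set.empty_inter, measureReal_empty, zero_mul, zero_add]
      exact mul_nonneg (he i j) measureReal_nonneg
  have h3 : ∀ j, ∑ i ∈ Finset.range j, e i j ≤ max C 0 := by
    intro j
    by_cases hj : j ∈ S ∧ 0 < j
    · have hjR : (0 : ℝ) < j := by exact_mod_cast hj.2
      have h1 : ∑ i ∈ Finset.range j, e i j
          ≤ ∑ i ∈ (Finset.range j).filter (fun q => q ∈ S), (Nat.gcd i j : ℝ) / j := by
        rw [Finset.sum_filter]
        refine Finset.sum_le_sum (fun i _ => ?_)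
        simp only [e]
        by_cases hi : i ∈ S
        · by_cases hi0 : 0 < i
          · simp [hi, hi0, hj]
          · simp only [hi, hi0, and_false, false_and, if_false, if_true]
            positivity
        · simp [hi]
      have h2' : ∑ i ∈ (Finset.range j).filter (fun q => q ∈ S), (Nat.gcd i j : ℝ) / j ≤ C := by
        rw [← Finset.sum_div, div_le_iff₀ hjR]
        exact hS j hj.1
      exact le_trans (le_trans h1 h2') (le_max_left _ _)
    · have : ∑ i ∈ Finset.range j, e i j = 0 := by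
        refine Finset.sum_eq_zero (fun i _ => ?_)
        simp only [e, hj, and_false, if_false]
      rw [this]
      exact le_max_right _ _
  have hdiv' : ¬ Summable (fun n => μ.real (A n)) := by
    intro hsum
    apply hdiv
    have hsumρ : Summable ρ := by
      have : Summable (fun n => 2 * ρ n) := by simpa only [hAmeas] using hsum
      have h := this.mul_left (1 / 2 : ℝ)
      refine h.congr (fun n => ?_)
      ring
    have htend := hsumρ.tendsto_atTop_zero
    have hev : ∀ᶠ n in Filter.atTop, ρ n < 1 / 2 :=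
      htend.eventually (gt_mem_nhds (by norm_num : (0 : ℝ) < 1 / 2))
    refine Summable.of_norm_bounded_eventually_nat hsumρ ?_
    filter_upwards [hev, Filter.eventually_gt_atTop 0] with n hn hn0
    by_cases hnS : n ∈ S
    · have hρn : ρ n = min (ψ n) (1 / 2) := by simp only [ρ, hnS, hn0, and_self, if_true]
      rw [Set.indicator_of_mem hnS, Real.norm_eq_abs, abs_of_nonneg (hψ0 n)]
      rw [hρn] at hn ⊢
      rcases le_total (ψ n) (1 / 2) with h | h
      · rw [min_eq_left h]
      · rw [min_eq_right h] at hn; exact absurd hn (lt_irrefl _)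
    · rw [Set.indicator_of_notMem hnS]
      simpa using hρ0 n
  have hmain := ae_infinite_of_quasi_indep μ A hA e he (max C 0) h2 h3 hdiv'
  filter_upwards [hmain] with x hx
  refine hx.mono ?_
  intro q hq
  have hq' : x ∈ A q := hq
  by_cases hqS : q ∈ S ∧ 0 < q
  · refine ⟨hqS.1, hqS.2, ?_⟩
    have h : ‖q • x - c q‖ < ρ q := hq'
    have hρq : ρ q ≤ ψ q := by
      simp only [ρ, hqS, and_self, if_true]
      exact min_le_left _ _
    exact lt_of_lt_of_le h hρq
  · rw [hAbad q hqS] at hq'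
    exact absurd hq' (Set.notMem_empty x)

/-- Transfer of almost-everywhere statements from the circle to the real line. -/
theorem ae_real_of_ae_circle (P : UnitAddCircle → Prop) (h : ∀ᵐ x : UnitAddCircle, P x) :
    ∀ᵐ x : ℝ, P (x : UnitAddCircle) := by
  have h1 : ∀ n : ℤ, ∀ᵐ x : ℝ ∂((volume : Measure ℝ).restrict (Set.Ioc (n : ℝ) (n + 1))),
      P (x : UnitAddCircle) :=
    fun n => (AddCircle.measurePreserving_mk 1 (n : ℝ)).quasiMeasurePreserving.ae h
  have h2 := (ae_restrict_iUnion_iff (fun n : ℤ => Set.Ioc (n : ℝ) (n + 1)) _).2 h1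
  rwa [iUnion_Ioc_intCast, Measure.restrict_univ] at h2

/-- Main theorem on the real line. -/
theorem real_main (S : Set ℕ) (C : ℝ)
    (hS : ∀ q' ∈ S, ∑ q ∈ (Finset.range q').filter (fun q => q ∈ S), (Nat.gcd q q' : ℝ) ≤ C * q')
    (γ : ℕ → ℝ) (ψ : ℕ → ℝ) (hψ0 : ∀ q, 0 ≤ ψ q)
    (hdiv : ¬ Summable (S.indicator ψ)) :
    ∀ᵐ x : ℝ, {q : ℕ | q ∈ S ∧ 0 < q ∧ ∃ a : ℤ, |(q : ℝ) * x - a - γ q| < ψ q}.Infinite := by
  have h := circle_main S C hS (fun q => (γ q : UnitAddCircle)) ψ hψ0 hdiv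
  have h' := ae_real_of_ae_circle _ h
  filter_upwards [h'] with x hx
  refine hx.mono ?_
  rintro q ⟨hqS, hq0, hq⟩
  refine ⟨hqS, hq0, ?_⟩
  have e : q • (x : UnitAddCircle) - (γ q : UnitAddCircle)
      = (((q : ℝ) * x - γ q : ℝ) : UnitAddCircle) := by
    rw [AddCircle.coe_sub, ← nsmul_eq_mul, AddCircle.coe_nsmul]
  rw [e, UnitAddCircle.norm_eq] at hq
  refine ⟨round ((q : ℝ) * x - γ q), ?_⟩
  have : (q : ℝ) * x - (round ((q : ℝ) * x - γ q) : ℝ) - γ q
      = (q : ℝ) * x - γ q - (round ((q : ℝ) * x - γ q) : ℝ) := by ring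
  rw [this]
  exact hq

end Vale.Agent.Lib.P028
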